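import Vale.Agent.Lib.P063.Asymp

open Finset Vale.Agent.Lib.P063

namespace Vale.Agent.Results.P063.SharpExponent

theorem eventually_conditions (s : ℕ) (ε : ℝ) :
    ∃ n₀ : ℕ, ∀ n : ℕ, n₀ ≤ n → 2 ≤ n ∧
      1 ≤ ((s + 1 : ℕ) : ℝ) * ((s + 1).factorial : ℝ) * Real.log n ∧ 1 / ε < n ∧
      ((s + 1 : ℕ) : ℝ) * ((s + 1).factorial : ℝ) * Real.log n + 1 + s ≤ n := by
  set A : ℝ := ((s + 1 : ℕ) : ℝ) * ((s + 1).factorial : ℝ) with hA
  have hApos : 0 < A := by positivity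
  have hcast : Filter.Tendsto (fun n : ℕ => (n : ℝ)) Filter.atTop Filter.atTop :=
    tendsto_natCast_atTop_atTop
  have hlog : Filter.Tendsto (fun n : ℕ => Real.log (n : ℝ)) Filter.atTop Filter.atTop :=
    Real.tendsto_log_atTop.comp hcast
  have e1 : ∀ᶠ n : ℕ in Filter.atTop, 2 ≤ n := Filter.eventually_ge_atTop 2
  have e2 : ∀ᶠ n : ℕ in Filter.atTop, 1 / A ≤ Real.log (n : ℝ) := hlog.eventually_ge_atTop _
  have e3 : ∀ᶠ n : ℕ in Filter.atTop, 1 / ε < (n : ℝ) := hcast.eventually_gt_atTop _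
  have e4 : ∀ᶠ n : ℕ in Filter.atTop, ‖Real.log (n : ℝ)‖ ≤ (1 / (2 * A)) * ‖(n : ℝ)‖ :=
    hcast.eventually (Real.isLittleO_log_id_atTop.def (by positivity))
  have e5 : ∀ᶠ n : ℕ in Filter.atTop, 2 * (1 + (s : ℝ)) ≤ (n : ℝ) := hcast.eventually_ge_atTop _
  obtain ⟨n₀, hn₀⟩ := Filter.eventually_atTop.1 (e1.and (e2.and (e3.and (e4.and e5))))
  refine ⟨n₀, fun n hn => ?_⟩
  obtain ⟨h1, h2, h3, h4, h5⟩ := hn₀ n hn
  refine ⟨h1, ?_, h3, ?_⟩
  · rw [div_le_iff₀ hApos] at h2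
    linarith
  · have hn0 : (0 : ℝ) ≤ n := Nat.cast_nonneg _
    rw [Real.norm_of_nonneg hn0] at h4
    have h6 : Real.log (n : ℝ) ≤ 1 / (2 * A) * n := (le_abs_self _).trans h4
    have h7 : A * Real.log (n : ℝ) ≤ A * (1 / (2 * A) * n) := mul_le_mul_of_nonneg_left h6 hApos.le
    have h8 : A * (1 / (2 * A) * n) = n / 2 := by field_simp
    linarith

/-- **Main result.**  For every uniformity `r ≥ 2` there is `c > 0` such that for every
`0 < ε < 1/2` and all large `n` some nontrivial increasing `r`-uniform hypergraph property on `n`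
vertices has threshold width at least `c * log((1-ε)/ε) * (log n)^(-r/(r-1))`. -/
theorem result (r : ℕ) (hr : 2 ≤ r) :
    ∃ c : ℝ, 0 < c ∧ ∀ ε : ℝ, 0 < ε → ε < 1 / 2 → ∃ n₀ : ℕ, ∀ n : ℕ, n₀ ≤ n →
      ∃ 𝒜 : Finset (Finset (Edge n r)),
        IsHypergraphProperty 𝒜 ∧ IsUpperSet (𝒜 : Set (Finset (Edge n r))) ∧ 𝒜 ≠ ∅ ∧ 𝒜 ≠ univ ∧
        c * Real.log ((1 - ε) / ε) * (Real.log n) ^ (-((r : ℝ) / ((r : ℝ) - 1))) ≤ width ε 𝒜 := by
  obtain ⟨s, rfl⟩ : ∃ s, r = s + 1 := ⟨r - 1, by omega⟩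
  have hs : 1 ≤ s := by omega
  set A : ℝ := ((s + 1 : ℕ) : ℝ) * ((s + 1).factorial : ℝ) with hA
  have hApos : 0 < A := by positivity
  set D : ℝ := (2 * ((s + 1 : ℕ) : ℝ)) ^ (s + 1) * A ^ (((s + 1 : ℕ) : ℝ) / s) with hD
  have hDpos : 0 < D := by positivity
  refine ⟨Real.exp (-2) / D, by positivity, ?_⟩
  intro ε hε0 hε1
  obtain ⟨n₀, hn₀⟩ := eventually_conditions s ε
  refine ⟨n₀, fun n hn => ?_⟩
  obtain ⟨h1, h2, h3, h4⟩ := hn₀ n hn
  obtain ⟨k, hk1, hk2, hk3, hk4⟩ := numerics s hs n h1 hε0 h2 h3 h4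
  refine ⟨cliqueProp n (s + 1) k, cliqueProp_invariant k, cliqueProp_upper k, ?_, ?_, ?_⟩
  · intro h
    have := univ_mem_cliqueProp (r := s + 1) hk2
    rw [h] at this
    exact absurd this (notMem_empty _)
  · intro h
    apply empty_notMem_cliqueProp (n := n) hk1
    rw [h]
    exact mem_univ _
  · have h5 := clique_width_ge hk1 hk2 hε0 hε1 hk3
    refine le_trans ?_ h5
    have hratio : 1 < (1 - ε) / ε := by rw [lt_div_iff₀ hε0]; linarith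
    have hΛpos : 0 < Real.log ((1 - ε) / ε) := Real.log_pos hratio
    have hnR : (2 : ℝ) ≤ n := by exact_mod_cast h1
    have hLpos : 0 < Real.log (n : ℝ) := Real.log_pos (by linarith)
    have hMpos : (0 : ℝ) < ((k.choose (s + 1) : ℕ) : ℝ) := by exact_mod_cast Nat.choose_pos hk1
    have hexp : ((s + 1 : ℕ) : ℝ) - 1 = s := by push_cast; ring
    rw [hexp, Real.rpow_neg hLpos.le]
    have hLr : 0 < Real.log (n : ℝ) ^ (((s + 1 : ℕ) : ℝ) / s) := Real.rpow_pos_of_pos hLpos _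
    have hk4' : ((k.choose (s + 1) : ℕ) : ℝ) ≤ D * Real.log (n : ℝ) ^ (((s + 1 : ℕ) : ℝ) / s) := hk4
    have h6 : (D * Real.log (n : ℝ) ^ (((s + 1 : ℕ) : ℝ) / s))⁻¹ ≤ (((k.choose (s + 1) : ℕ) : ℝ))⁻¹ :=
      inv_anti₀ hMpos hk4'
    calc Real.exp (-2) / D * Real.log ((1 - ε) / ε) * (Real.log (n : ℝ) ^ (((s + 1 : ℕ) : ℝ) / s))⁻¹
        = Real.exp (-2) * (Real.log ((1 - ε) / ε) *
            (D * Real.log (n : ℝ) ^ (((s + 1 : ℕ) : ℝ) / s))⁻¹) := by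
          rw [mul_inv]; ring
      _ ≤ Real.exp (-2) * (Real.log ((1 - ε) / ε) * (((k.choose (s + 1) : ℕ) : ℝ))⁻¹) := by
          apply mul_le_mul_of_nonneg_left _ (Real.exp_pos _).le
          exact mul_le_mul_of_nonneg_left h6 hΛpos.le
      _ = _ := by rw [div_eq_mul_inv (Real.log ((1 - ε) / ε))]

end Vale.Agent.Results.P063.SharpExponent
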